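import Vale.Agent.P207.N4.Dim
import Vale.Agent.P207.N4.Top.Orb
import Vale.Agent.P207.N4.H147.Axis

/-!
# P207, line N4: the axes of the group are dense

* `axis_near`: the axes of `k β^m` have end points near `β⁻`, `k β⁺` (283's text of the line N3);
* `exists_orb_mem`: every open set of pairs of distinct boundary points contains the pair of end
  points of an axis;
* `exists_orb_frame`: every nonempty open set of frames which is invariant under the frame flow
  and under the rotations contains a frame on an axis.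
-/

open Set Filter Topology Metric MeasureTheory
open scoped ContDiff

noncomputable section

namespace Vale.Agent.P207.N4.H147

open Vale.Agent.P207.N3

variable [Dim]

variable {Γ X B : Type} [Group Γ] [MetricSpace X] [ProperSpace X] [MulAction Γ X]
  [IsIsometricSMul Γ X] [TopologicalSpace B] [CompactSpace B] [T2Space B] [MulAction Γ B]
  [ContinuousConstSMul Γ B] {L : Leaf Γ X B}

/-- a third point of the boundary -/
theorem exists_third (L : Leaf Γ X B) (x : X) (κ : B) : ∃ κ', κ' ≠ κ ∧ κ' ≠ L.em x := by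
  have h0 : (0 : E2) ∈ closedBall (0 : E2) 3 := by simp
  have h1 : (EuclideanSpace.single 0 (1 : ℝ) : E2) ∈ closedBall (0 : E2) 3 := by
    rw [mem_closedBall, dist_zero_right, PiLp.norm_single]
    norm_num
  have hne : L.e x 0 ≠ L.e x (EuclideanSpace.single 0 (1 : ℝ)) := fun h => by
    have h2 := L.e_inj x h0 h1 h
    have h3 : ‖(EuclideanSpace.single 0 (1 : ℝ) : E2)‖ = 0 := by rw [← h2, norm_zero]
    rw [PiLp.norm_single] at h3
    norm_num at h3
  by_cases h : L.e x 0 = κ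
  · exact ⟨_, fun h' => hne (h.trans h'.symm), L.e_ne x _ h1⟩
  · exact ⟨_, h, L.e_ne x _ h0⟩

/-- All axes of `k β^m`, for large `m`: the end points are close to `β⁻` and `k β⁺`. -/
theorem axis_near (o : Orb L) (k : Γ) (hk : k • o.pos ≠ o.neg) {U V : Set B}
    (hU : U ∈ 𝓝 o.neg) (hV : V ∈ 𝓝 (k • o.pos)) :
    ∀ᶠ m : ℕ in atTop, k * o.β ^ m ≠ 1 ∧
      ∀ (z : X) (l : ℝ) (a : O2), L.IsAxis (k * o.β ^ m) z l a → L.em z ∈ U ∧ L.ep z ∈ V := by
  obtain ⟨κ', h1, h2⟩ := exists_third L o.x (k • o.pos)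
  -- the closed neighbourhood of `κ`
  have hn : V ∩ {o.neg, κ'}ᶜ ∈ 𝓝 (k • o.pos) := by
    refine inter_mem hV ((Set.toFinite _).isClosed.isOpen_compl.mem_nhds ?_)
    rintro (h | h)
    · exact hk h
    · exact h1 h.symm
  obtain ⟨P, hP, hPc, hPs⟩ := exists_mem_nhds_isClosed_subset hn
  have hPneg : o.neg ∉ P := fun h => (hPs h).2 (Or.inl rfl)
  have hPκ : κ' ∉ P := fun h => (hPs h).2 (Or.inr rfl)
  -- the closed neighbourhood of `β⁻`
  have hn' : U ∩ (Pᶜ ∩ {κ'}ᶜ) ∈ 𝓝 o.neg := by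
    refine inter_mem hU (inter_mem (hPc.isOpen_compl.mem_nhds hPneg)
      (isClosed_singleton.isOpen_compl.mem_nhds ?_))
    exact fun h => h2 h.symm
  obtain ⟨C, hC, hCc, hCs⟩ := exists_mem_nhds_isClosed_subset hn'
  have hPK : P ⊆ (interior C)ᶜ := fun p hp h => (hCs (interior_subset h)).2.1 hp
  have hκK : κ' ∈ (interior C)ᶜ := fun h => (hCs (interior_subset h)).2.2 rfl
  have hK : IsCompact (interior C)ᶜ := isOpen_interior.isClosed_compl.isCompact
  have hW : (fun ζ : B => k • ζ) ⁻¹' P ∈ 𝓝 o.pos :=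
    (continuous_const_smul k).continuousAt hP
  have hN := Ax.north o.ax hK (fun h => h (mem_interior_iff_mem_nhds.2 hC)) hW
  filter_upwards [hN] with m hm
  have hθ : ∀ ζ ∈ (interior C)ᶜ, (k * o.β ^ m) • ζ ∈ P := fun ζ hζ => by
    rw [mul_smul]; exact hm ζ hζ
  refine ⟨fun h => ?_, fun z l a hz => ?_⟩
  · have h3 := hθ κ' hκK
    rw [h, one_smul] at h3
    exact hPκ h3
  · set θ := k * o.β ^ m with hθd
    have hpow : ∀ ζ ∈ (interior C)ᶜ, ∀ n : ℕ, 1 ≤ n → θ ^ n • ζ ∈ P := by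
      intro ζ hζ n hn
      induction n, hn using Nat.le_induction with
      | base => rw [pow_one]; exact hθ ζ hζ
      | succ n _ ih => rw [pow_succ', mul_smul]; exact hθ _ (hPK ih)
    have hep : L.ep z ∈ P := by
      obtain ⟨p, hp, hpz⟩ : ∃ p ∈ (interior C)ᶜ, p ≠ L.em z := by
        by_cases h : κ' = L.em z
        · exact ⟨k • o.pos, hPK (mem_of_mem_nhds hP), fun h' => h1 (h.trans h'.symm)⟩
        · exact ⟨κ', hκK, h⟩
      by_contra hcon
      have h3 := Ax.north hz (K := {p}) isCompact_singleton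
        (fun h => hpz (mem_singleton_iff.1 h).symm) (hPc.isOpen_compl.mem_nhds hcon)
      obtain ⟨n, hn, hn1⟩ := (h3.and (eventually_ge_atTop 1)).exists
      exact hn p rfl (hpow p hp n hn1)
    refine ⟨?_, (hPs hep).1⟩
    have hinv : ∀ ζ, ζ ∉ P → θ⁻¹ • ζ ∈ interior C := by
      intro ζ hζ
      by_contra hcon
      have := hθ _ hcon
      rw [smul_inv_smul] at this
      exact hζ this
    have hIP : ∀ ζ ∈ interior C, ζ ∉ P := fun ζ hζ h => hPK h hζ
    have hinvpow : ∀ n : ℕ, (θ ^ n)⁻¹ • o.neg ∈ interior C := by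
      intro n
      induction n with
      | zero => simpa using mem_interior_iff_mem_nhds.2 hC
      | succ n ih =>
        have e : (θ ^ (n + 1))⁻¹ • o.neg = θ⁻¹ • ((θ ^ n)⁻¹ • o.neg) := by
          rw [pow_succ, mul_inv_rev, mul_smul]
        rw [e]
        exact hinv _ (hIP _ ih)
    have hemC : L.em z ∈ C := by
      by_contra hcon
      have h3 := Ax.south hz (K := {o.neg}) isCompact_singleton
        (fun h => hPneg ((mem_singleton_iff.1 h) ▸ hep)) (hCc.isOpen_compl.mem_nhds hcon)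
      obtain ⟨n, hn⟩ := h3.exists
      exact hn o.neg rfl (interior_subset (hinvpow n))
    exact (hCs hemC).1

/-- the group is not trivial -/
theorem exists_ne_one (L : Leaf Γ X B) : ∃ β : Γ, β ≠ 1 := by
  by_contra hcon
  push Not at hcon
  obtain ⟨x⟩ := L.nonempty
  have h1 : (range fun g : Γ => g • L.em x) = {L.em x} := by
    ext p
    constructor
    · rintro ⟨g, rfl⟩
      change g • L.em x = L.em x
      rw [hcon g, one_smul]
    · intro hp
      exact ⟨1, by change (1 : Γ) • L.em x = p; rw [one_smul]; exact hp.symm⟩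
  have h2 := L.dense_orbit (L.em x)
  rw [h1] at h2
  have h3 : closure ({L.em x} : Set B) = {L.em x} := isClosed_singleton.closure_eq
  have h4 : L.ep x ∈ closure ({L.em x} : Set B) := h2 _
  rw [h3, mem_singleton_iff] at h4
  exact L.em_ne_ep x h4.symm

/-- an axis exists -/
theorem exists_orb (L : Leaf Γ X B) : Nonempty (Orb L) := by
  obtain ⟨β, hβ⟩ := exists_ne_one L
  obtain ⟨x, l, a, hl, hx⟩ := L.exists_axis β hβ
  exact ⟨⟨β, x, l, a, hl, hx⟩⟩

/-- **The pairs of end points of axes are dense.** -/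
theorem exists_orb_mem (L : Leaf Γ X B) {O : Set (B × B)} (hO : IsOpen O) {p : B × B}
    (hp : p ∈ O) (hne : p.1 ≠ p.2) : ∃ o : Orb L, (o.neg, o.pos) ∈ O := by
  obtain ⟨o₀⟩ := exists_orb L
  have hd : IsOpen {q : B × B | q.1 ≠ q.2} := isOpen_ne_fun continuous_fst continuous_snd
  obtain ⟨U, V, hU, hV, hpU, hpV, hUV⟩ := isOpen_prod_iff.1 (hO.inter hd) p.1 p.2 ⟨hp, hne⟩
  obtain ⟨_, hk1, ⟨k₁, rfl⟩⟩ := (L.dense_orbit o₀.neg).inter_open_nonempty U hU ⟨_, hpU⟩
  set o₁ : Orb L := o₀.conj k₁ with ho₁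
  have hneg : o₁.neg ∈ U := by
    have : o₁.neg = k₁ • o₀.neg := L.em_smul k₁ o₀.x
    rw [this]
    exact hk1
  obtain ⟨_, hk2, ⟨k₂, rfl⟩⟩ := (L.dense_orbit o₁.pos).inter_open_nonempty V hV ⟨_, hpV⟩
  have hk : k₂ • o₁.pos ≠ o₁.neg := fun h => (hUV (mk_mem_prod hneg hk2)).2 h.symm
  obtain ⟨m, hm1, hm2⟩ :=
    (axis_near o₁ k₂ hk (hU.mem_nhds hneg) (hV.mem_nhds hk2)).exists
  obtain ⟨x, l, a, hl, hx⟩ := L.exists_axis _ hm1
  refine ⟨⟨_, x, l, a, hl, hx⟩, ?_⟩
  obtain ⟨h1, h2⟩ := hm2 x l a ⟨hl, hx⟩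
  exact (hUV (mk_mem_prod h1 h2)).1

/-- Hopf coordinates are open: near every frame all pairs of end points are attained. -/
theorem nhds_ends (L : Leaf Γ X B) (x : X) {W : Set X} (hW : W ∈ 𝓝 x)
    (hφ : ∀ y ∈ W, ∀ t, L.φ t y ∈ W) (hr : ∀ y ∈ W, ∀ a, L.rot a y ∈ W) :
    ∃ O : Set (B × B), IsOpen O ∧ (L.em x, L.ep x) ∈ O ∧
      ∀ y : X, (L.em y, L.ep y) ∈ O → y ∈ W := by
  by_contra hcon
  push Not at hcon
  -- frames `y` with end points tending to those of `x` and outside `W`, at the level of `x`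
  have h1 : ∀ O ∈ 𝓝 (L.em x, L.ep x), ∃ y : X, (L.em y, L.ep y) ∈ O ∧ L.lv y = L.lv x ∧ y ∉ W := by
    intro O hO
    obtain ⟨O', hO's, hO'o, hO'm⟩ := mem_nhds_iff.1 hO
    obtain ⟨y, hy, hyW⟩ := hcon O' hO'o hO'm
    refine ⟨L.φ (L.lv x - L.lv y) y, ?_, ?_, ?_⟩
    · rw [L.em_φ, ep_φ]; exact hO's hy
    · rw [L.lv_φ]; ring
    · intro h
      have h2 := hφ _ h (-(L.lv x - L.lv y))
      rw [φ_sub_cancel'] at h2
      exact hyW h2
  -- compactness
  have hd : IsOpen {q : B × B | q.1 ≠ q.2} := isOpen_ne_fun continuous_fst continuous_snd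
  have hxd : (L.em x, L.ep x) ∈ {q : B × B | q.1 ≠ q.2} := L.em_ne_ep x
  obtain ⟨K, hK, hKc, hKs⟩ := exists_mem_nhds_isClosed_subset (hd.mem_nhds hxd)
  have hQ := L.hopf_proper K hKc.isCompact (fun q hq => hKs hq) |L.lv x|
  set Q : Set X := {z | (L.em z, L.ep z) ∈ K ∧ |L.lv z| ≤ |L.lv x|} with hQd
  let F : Filter X := (comap (fun z : X => (L.em z, L.ep z)) (𝓝 (L.em x, L.ep x))) ⊓
    𝓟 ({z | L.lv z = L.lv x} ∩ Wᶜ)
  have hF : F.NeBot := by
    refine (Filter.inf_principal_neBot_iff).2 ?_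
    rintro S ⟨O, hO, hOS⟩
    obtain ⟨y, hy1, hy2, hy3⟩ := h1 O hO
    exact ⟨y, hOS hy1, hy2, hy3⟩
  have hFQ : F ≤ 𝓟 Q := by
    rw [le_principal_iff]
    have h2 : (fun z : X => (L.em z, L.ep z)) ⁻¹' K ∩ ({z | L.lv z = L.lv x} ∩ Wᶜ) ∈ F :=
      inter_mem_inf (preimage_mem_comap hK) (mem_principal_self _)
    refine mem_of_superset h2 ?_
    rintro z ⟨hz1, hz2, -⟩
    refine ⟨hz1, ?_⟩
    rw [show L.lv z = L.lv x from hz2]
  obtain ⟨z, -, hz⟩ := hQ.exists_clusterPt hFQ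
  -- the cluster point has the end points and the level of `x`
  have hendc : Continuous fun z : X => (L.em z, L.ep z) := L.em_cont.prodMk (ep_cont L)
  have hzF : (𝓝 z ⊓ F).NeBot := hz
  have h3 : Tendsto (fun z : X => (L.em z, L.ep z)) (𝓝 z ⊓ F) (𝓝 (L.em z, L.ep z)) :=
    (hendc.tendsto z).mono_left inf_le_left
  have h4 : Tendsto (fun z : X => (L.em z, L.ep z)) (𝓝 z ⊓ F) (𝓝 (L.em x, L.ep x)) :=
    tendsto_comap.mono_left (inf_le_right.trans inf_le_left)
  have h5 : (L.em z, L.ep z) = (L.em x, L.ep x) := tendsto_nhds_unique h3 h4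
  have h6 : L.lv z = L.lv x := by
    have h7 : Tendsto L.lv (𝓝 z ⊓ F) (𝓝 (L.lv z)) := (L.lv_cont.tendsto z).mono_left inf_le_left
    have h8 : Tendsto L.lv (𝓝 z ⊓ F) (𝓝 (L.lv x)) := by
      refine tendsto_const_nhds.congr' ?_
      have h9 : ({z | L.lv z = L.lv x} ∩ Wᶜ : Set X) ∈ 𝓝 z ⊓ F :=
        (inf_le_right.trans inf_le_right : 𝓝 z ⊓ F ≤ 𝓟 _) (mem_principal_self _)
      filter_upwards [h9] with y hy
      exact hy.1.symm
    exact tendsto_nhds_unique h7 h8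
  obtain ⟨a, ha⟩ := L.frame_unique z x (Prod.ext_iff.1 h5).1 (Prod.ext_iff.1 h5).2 h6
  -- `W` is a neighbourhood of `z`
  have hWz : W ∈ 𝓝 z := by
    have h10 : L.rot a ⁻¹' W ∈ 𝓝 z := by
      refine (L.rot_cont a).continuousAt.preimage_mem_nhds ?_
      rw [← ha]; exact hW
    refine mem_of_superset h10 ?_
    intro y hy
    have h11 := hr _ hy a⁻¹
    rwa [← L.rot_mul, mul_inv_cancel, L.rot_one] at h11
  have h12 : Wᶜ ∈ 𝓝 z ⊓ F := by
    have h9 : ({z | L.lv z = L.lv x} ∩ Wᶜ : Set X) ∈ 𝓝 z ⊓ F :=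
      (inf_le_right.trans inf_le_right : 𝓝 z ⊓ F ≤ 𝓟 _) (mem_principal_self _)
    exact mem_of_superset h9 inter_subset_right
  have h13 : W ∩ Wᶜ ∈ 𝓝 z ⊓ F := inter_mem (mem_inf_of_left hWz) h12
  rw [inter_compl_self] at h13
  exact hzF.ne (empty_mem_iff_bot.1 h13)

/-- **Every nonempty open set of frames, invariant under the flow and the rotations, contains a
frame on an axis.** -/
theorem exists_orb_frame (L : Leaf Γ X B) {W : Set X} (hW : IsOpen W) (hne : W.Nonempty)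
    (hφ : ∀ y ∈ W, ∀ t, L.φ t y ∈ W) (hr : ∀ y ∈ W, ∀ a, L.rot a y ∈ W) :
    ∃ o : Orb L, o.x ∈ W := by
  obtain ⟨x, hx⟩ := hne
  obtain ⟨O, hO, hxO, hOW⟩ := nhds_ends L x (hW.mem_nhds hx) hφ hr
  obtain ⟨o, ho⟩ := exists_orb_mem L hO hxO (L.em_ne_ep x)
  exact ⟨o, hOW o.x ho⟩

end Vale.Agent.P207.N4.H147
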